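import Vale.Agent.P207.N3.H248.UMan4
import Vale.Agent.P207.N3.H803.Ode

/-!
# P207, line N3: the solutions of the slope equation `u' = g (φ_s x) u` are the small solutions on
`]-∞, 0]` of the second order equation

`glue`: over 248's `USys`, `Slope`: monotonicity of the slopes, decay and slope equation of the
small solutions, and: a small solution `w` on `[0, t]` of the slope equation is a piece of the small
solution with base point `φ_t x` and value `w t` at the time `0`.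
-/

open Set Filter Topology Metric
open scoped ContDiff

noncomputable section

set_option linter.unusedSectionVars false

namespace Vale.Agent.P207.N3.H440

open Vale.Agent.P207.N3.H248

variable {K E : Type} [TopologicalSpace K] [CompactSpace K] [FirstCountableTopology K]
  [NormedAddCommGroup E] [InnerProductSpace ℝ E] [FiniteDimensional ℝ E] (S : USys K E)

/-- positivity of `U` -/
theorem inner_U_ge (x : K) (a : E) : S.χ * ‖a‖ ^ 2 ≤ inner ℝ (S.U x a) a := by
  have h1 : inner ℝ ((S.Λ • ContinuousLinearMap.id ℝ E - S.U x) a) a ≤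
      (S.Λ - S.χ) * ‖a‖ ^ 2 := by
    refine (real_inner_le_norm _ _).trans ?_
    have h2 := (S.Λ • ContinuousLinearMap.id ℝ E - S.U x).le_opNorm a
    have h3 := S.U_le x
    nlinarith [mul_le_mul_of_nonneg_right h3 (norm_nonneg a), norm_nonneg a,
      mul_le_mul_of_nonneg_right h2 (norm_nonneg a),
      mul_le_mul_of_nonneg_right (mul_le_mul_of_nonneg_right h3 (norm_nonneg a)) (norm_nonneg a)]
  have h2 : (S.Λ • ContinuousLinearMap.id ℝ E - S.U x) a = S.Λ • a - S.U x a := rfl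
  rw [h2, inner_sub_left, inner_smul_left, real_inner_self_eq_norm_sq] at h1
  simp only [conj_trivial] at h1
  linarith

variable {S} {ε δ : ℝ} {g : K → E → E}

theorem jc_slope (hg : S.Slope ε δ g) : JC g (univ ×ˢ ball (0 : E) ε) where
  isOpen := isOpen_univ.prod isOpen_ball
  smooth := fun x => (hg.smooth x).mono fun u hu => hu.2
  cont := hg.cont

/-- a piece of a solution on `]-∞, 0]`, seen from `[0, t]` -/
theorem hasDerivWithinAt_shift {u : ℝ → E} {u' : E} {t s : ℝ} (hs : s ∈ Icc 0 t)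
    (h : HasDerivWithinAt u u' (Iic 0) (s - t)) :
    HasDerivWithinAt (fun s => u (s - t)) u' (Icc 0 t) s := by
  have h1 : HasDerivWithinAt (fun s : ℝ => s - t) 1 (Icc 0 t) s :=
    ((hasDerivAt_id s).sub_const t).hasDerivWithinAt
  have h2 := HasDerivWithinAt.scomp s (g₁ := u) (h := fun s => s - t) h h1
    (fun r hr => by rw [mem_Iic]; linarith [hr.2])
  rwa [one_smul] at h2

/-- the glue -/
theorem glue (hadd : ∀ s t x, S.φ (s + t) x = S.φ s (S.φ t x)) (hg : S.Slope ε δ g) :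
    ∃ ε₁, 0 < ε₁ ∧ ε₁ < ε ∧
      (∀ x, ∀ u ∈ closedBall (0 : E) ε₁, ∀ v ∈ closedBall (0 : E) ε₁,
        S.χ / 2 * ‖u - v‖ ^ 2 ≤ inner ℝ (g x u - g x v) (u - v)) ∧
      (∀ x, ∀ u p : ℝ → E, S.Sol x δ u p → u 0 ∈ closedBall (0 : E) ε₁ → ∀ t ≤ 0,
        ‖u t‖ ≤ Real.exp (S.χ / 2 * t) * ‖u 0‖ ∧ u t ∈ closedBall (0 : E) ε₁ ∧
          p t = g (S.φ t x) (u t)) ∧
      ∀ x, ∀ t ≥ 0, ∀ w : ℝ → E,
        (∀ s ∈ Icc 0 t, HasDerivWithinAt w (g (S.φ s x) (w s)) (Icc 0 t) s) →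
        (∀ s ∈ Icc 0 t, ‖w s‖ ≤ ε₁) → ∀ u p : ℝ → E, S.Sol (S.φ t x) δ u p → u 0 = w t →
        ∀ s ∈ Icc 0 t, u (s - t) = w s ∧ p (s - t) = g (S.φ s x) (w s) := by
  have hχ := S.χ_pos
  obtain ⟨ε₂, hε₂, hε₂ε, hmono⟩ := H803.exists_monotone g hg.ε_pos (jc_slope hg)
    (χ := S.χ) (χ' := S.χ / 2)
    (fun x a => by rw [hg.deriv x]; exact inner_U_ge S x a) (by linarith)
  obtain ⟨C, ε', hε', hε'ε, hbd⟩ := hg.bound
  -- the radius
  obtain ⟨ε₁, hε₁, hε₁2, hε₁', hε₁C⟩ : ∃ ε₁, 0 < ε₁ ∧ ε₁ ≤ ε₂ ∧ ε₁ < ε' ∧ C * ε₁ ≤ ε₂ := by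
    have hC : 0 < |C| + 1 := by positivity
    refine ⟨min (min ε₂ (ε' / 2)) (ε₂ / (|C| + 1)), ?_, ?_, ?_, ?_⟩
    · exact lt_min (lt_min hε₂ (by linarith)) (by positivity)
    · exact (min_le_left _ _).trans (min_le_left _ _)
    · exact ((min_le_left _ _).trans (min_le_right _ _)).trans_lt (by linarith)
    · set r := min (min ε₂ (ε' / 2)) (ε₂ / (|C| + 1))
      have hr0 : 0 < r := lt_min (lt_min hε₂ (by linarith)) (by positivity)
      have h1 : r ≤ ε₂ / (|C| + 1) := min_le_right _ _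
      have h2 : r * (|C| + 1) ≤ ε₂ := (le_div_iff₀ hC).1 h1
      nlinarith [le_abs_self C]
  -- the small solutions stay in the ball of radius `ε₂`
  have hstay : ∀ x, ∀ u p : ℝ → E, S.Sol x δ u p → u 0 ∈ closedBall (0 : E) ε₁ → ∀ t ≤ 0,
      u t ∈ closedBall (0 : E) ε₂ ∧ p t = g (S.φ t x) (u t) := by
    intro x u p h h0 t ht
    rw [mem_closedBall_zero_iff] at h0
    obtain ⟨h1, h2⟩ := hbd x u p h (by rw [mem_ball_zero_iff]; exact h0.trans_lt hε₁') t ht
    refine ⟨?_, hg.invariant hadd h ht h2⟩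
    rw [mem_closedBall_zero_iff]
    have h3 : ‖u t‖ ≤ ‖(u t, p t)‖ := le_max_left _ _
    rcases le_or_gt 0 C with hC | hC
    · calc ‖u t‖ ≤ C * ‖u 0‖ := h3.trans h1
        _ ≤ C * ε₁ := mul_le_mul_of_nonneg_left h0 hC
        _ ≤ ε₂ := hε₁C
    · have h4 : C * ‖u 0‖ ≤ 0 := mul_nonpos_of_nonpos_of_nonneg hC.le (norm_nonneg _)
      linarith
  -- the slope equation on `[0, t]`
  have hode : ∀ x, ∀ t ≥ 0, ∀ u p : ℝ → E, S.Sol (S.φ t x) δ u p → u 0 ∈ closedBall (0 : E) ε₁ →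
      (∀ s ∈ Icc 0 t, HasDerivWithinAt (fun s => u (s - t)) (g (S.φ s x) (u (s - t)))
        (Icc 0 t) s) ∧ ∀ s ∈ Icc 0 t, u (s - t) ∈ closedBall (0 : E) ε₂ := by
    intro x t ht u p h h0
    refine ⟨fun s hs => ?_, fun s hs => (hstay _ u p h h0 (s - t) (by linarith [hs.2])).1⟩
    have h1 := hstay _ u p h h0 (s - t) (by linarith [hs.2])
    have h2 := hasDerivWithinAt_shift hs (h.hu (s - t) (by linarith [hs.2]))
    rw [h1.2, ← hadd, sub_add_cancel] at h2
    exact h2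
  have hdec : ∀ x, ∀ u p : ℝ → E, S.Sol x δ u p → u 0 ∈ closedBall (0 : E) ε₁ → ∀ t ≤ 0,
      ‖u t‖ ≤ Real.exp (S.χ / 2 * t) * ‖u 0‖ := by
    intro x u p h h0 t ht
    have hx : S.φ (-t) (S.φ t x) = x := by rw [← hadd, neg_add_cancel, S.φ_zero]
    have h' : S.Sol (S.φ (-t) (S.φ t x)) δ u p := by rw [hx]; exact h
    obtain ⟨h1, h2⟩ := hode (S.φ t x) (-t) (by linarith) u p h' h0
    have h3 := H803.contraction (f := fun s => g (S.φ s (S.φ t x))) (χ := S.χ / 2) (t := -t)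
      (ε := ε₂) (by linarith) (fun s _ => hmono _) (u := fun s => u (s - -t)) (v := fun _ => 0) h1
      (fun s _ => by
        have h4 := hasDerivWithinAt_const (F := E) s (Icc 0 (-t)) (0 : E)
        simp only [hg.zero]
        exact h4)
      h2 (fun s _ => mem_closedBall_self hε₂.le) 0 ⟨le_rfl, by linarith⟩
    simp only [sub_neg_eq_add, zero_add, sub_zero, neg_add_cancel] at h3
    refine h3.trans (le_of_eq ?_)
    congr 2
    ring
  refine ⟨ε₁, hε₁, by linarith, fun x u hu v hv => hmono x u (closedBall_subset_closedBall hε₁2 hu)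
    v (closedBall_subset_closedBall hε₁2 hv), fun x u p h h0 t ht => ⟨hdec x u p h h0 t ht, ?_,
    (hstay x u p h h0 t ht).2⟩, ?_⟩
  · rw [mem_closedBall_zero_iff] at h0 ⊢
    have h1 := hdec x u p h (by rwa [mem_closedBall_zero_iff]) t ht
    have h2 : Real.exp (S.χ / 2 * t) ≤ 1 := Real.exp_le_one_iff.2 (by nlinarith)
    nlinarith [norm_nonneg (u 0)]
  · intro x t ht w hw hwb u p h h0 s hs
    have h00 : u 0 ∈ closedBall (0 : E) ε₁ := by
      rw [mem_closedBall_zero_iff, h0]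
      exact hwb t ⟨ht, le_rfl⟩
    obtain ⟨h1, h2⟩ := hode x t ht u p h h00
    have h3 := H803.contraction (f := fun s => g (S.φ s x)) (χ := S.χ / 2) (t := t) (ε := ε₂) ht
      (fun s _ => hmono _) (u := fun s => u (s - t)) (v := w) h1 hw h2
      (fun s hs => by rw [mem_closedBall_zero_iff]; exact (hwb s hs).trans hε₁2) s hs
    simp only [sub_self, h0, norm_zero, mul_zero] at h3
    have h4 : u (s - t) = w s := by
      have h5 := norm_le_zero_iff.1 h3
      exact sub_eq_zero.1 h5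
    refine ⟨h4, ?_⟩
    rw [(hstay _ u p h h00 (s - t) (by linarith [hs.2])).2, ← hadd, sub_add_cancel, h4]

end Vale.Agent.P207.N3.H440
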